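import Mathlib

/-!
P235-M, unit S (static statement), helper18.  Definitions and the list of lemma statements (rows).
States: permutations v of Fin (2k); V p = vl v p is the value at the natural number p.
Positions p < k and values < k: part A; positions k+y and values k+b: part B;
C: position x < k, value k+b; D: position k+y, value a < k.  All indices start with 0.
Band: value and position differ by at most k, so b <= x for C and y <= a for D.
-/

namespace Vale.Agent.P235.R2.H18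

open Equiv Finset

/-- value at a natural number (identity outside) -/
def vl {k : ℕ} (v : Perm (Fin (2 * k))) (p : ℕ) : ℕ :=
  if h : p < 2 * k then (v ⟨p, h⟩ : ℕ) else p

/-- the transposition of two natural numbers, as an element of the group (identity if one of them
is outside) -/
def sw (k p q : ℕ) : Perm (Fin (2 * k)) :=
  if h : p < 2 * k ∧ q < 2 * k then swap ⟨p, h.1⟩ ⟨q, h.2⟩ else 1

variable {k : ℕ}

theorem vl_lt (v : Perm (Fin (2 * k))) {p : ℕ} (hp : p < 2 * k) : vl v p < 2 * k := by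
  unfold vl; rw [dif_pos hp]; exact (v ⟨p, hp⟩).2

theorem vl_inj (v : Perm (Fin (2 * k))) {p q : ℕ} (hp : p < 2 * k) (hq : q < 2 * k)
    (h : vl v p = vl v q) : p = q := by
  unfold vl at h; rw [dif_pos hp, dif_pos hq] at h
  have := v.injective (Fin.ext h)
  simpa using this

theorem vl_surj (v : Perm (Fin (2 * k))) {a : ℕ} (ha : a < 2 * k) : ∃ p < 2 * k, vl v p = a := by
  obtain ⟨p, hp⟩ := v.surjective ⟨a, ha⟩
  refine ⟨p, p.2, ?_⟩
  unfold vl; rw [dif_pos p.2]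
  simp [hp]

theorem sw_sq (p q : ℕ) : sw k p q * sw k p q = 1 := by
  unfold sw; split_ifs
  · exact swap_mul_self _ _
  · simp

theorem sw_comm (p q : ℕ) : sw k p q = sw k q p := by
  unfold sw
  by_cases h : p < 2 * k ∧ q < 2 * k
  · rw [dif_pos h, dif_pos ⟨h.2, h.1⟩, swap_comm]
  · rw [dif_neg h, dif_neg (fun h' => h ⟨h'.2, h'.1⟩)]

/-- values of `v * sw k p q` -/
theorem vl_mul_sw (v : Perm (Fin (2 * k))) {p q : ℕ} (hp : p < 2 * k) (hq : q < 2 * k) (s : ℕ) :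
    vl (v * sw k p q) s = if s = p then vl v q else if s = q then vl v p else vl v s := by
  unfold sw
  rw [dif_pos ⟨hp, hq⟩]
  unfold vl
  by_cases hs : s < 2 * k
  · rw [dif_pos hs, dif_pos hp, dif_pos hq, Perm.mul_apply]
    by_cases h1 : s = p
    · subst h1; simp
    · by_cases h2 : s = q
      · subst h2; simp [h1]
      · rw [if_neg h1, if_neg h2, dif_pos hs, swap_apply_of_ne_of_ne]
        · intro h; exact h1 (by simpa using congrArg Fin.val h)
        · intro h; exact h2 (by simpa using congrArg Fin.val h)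
  · have h1 : s ≠ p := by omega
    have h2 : s ≠ q := by omega
    simp [hs, h1, h2]

/-- band permutations -/
def Band (v : Perm (Fin (2 * k))) : Prop := ∀ p < 2 * k, vl v p ≤ p + k ∧ p ≤ vl v p + k

/-- flux -/
def lev (v : Perm (Fin (2 * k))) : ℕ := (range k).filter (fun q => k ≤ vl v q) |>.card

/-- `F` is nonnegative and increases along up-swaps inside the band -/
def IncB (F : Perm (Fin (2 * k)) → ℝ) : Prop :=
  (∀ v, 0 ≤ F v) ∧
  ∀ v, ∀ p q : ℕ, p < q → q < 2 * k → vl v p < vl v q → Band v → Band (v * sw k p q) →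
    F v ≤ F (v * sw k p q)

/-! counts -/

/-- number of A-positions `≤ x` -/
def gA (v : Perm (Fin (2 * k))) (x : ℕ) : ℕ :=
  (range k).filter (fun q => q ≤ x ∧ vl v q < k) |>.card
/-- number of A-values `≥ a` -/
def hA (v : Perm (Fin (2 * k))) (a : ℕ) : ℕ :=
  (range k).filter (fun q => a ≤ vl v q ∧ vl v q < k) |>.card
/-- number of B-positions `≥ y` -/
def gB (v : Perm (Fin (2 * k))) (y : ℕ) : ℕ :=
  (range k).filter (fun q => y ≤ q ∧ k ≤ vl v (k + q)) |>.card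
/-- number of B-values `≤ x` -/
def hB (v : Perm (Fin (2 * k))) (x : ℕ) : ℕ :=
  (range k).filter (fun q => k ≤ vl v (k + q) ∧ vl v (k + q) ≤ k + x) |>.card

def poolA (v : Perm (Fin (2 * k))) (x y : ℕ) : ℕ :=
  (range k).filter (fun q => x < q ∧ y ≤ vl v q ∧ vl v q < k) |>.card
def poolB (v : Perm (Fin (2 * k))) (x y : ℕ) : ℕ :=
  (range k).filter (fun q => q < y ∧ k ≤ vl v (k + q) ∧ vl v (k + q) ≤ k + x) |>.card
def lowA (v : Perm (Fin (2 * k))) (x y : ℕ) : ℕ :=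
  (range k).filter (fun q => q ≤ x ∧ vl v q < y) |>.card
def highB (v : Perm (Fin (2 * k))) (x y : ℕ) : ℕ :=
  (range k).filter (fun q => y ≤ q ∧ k + x < vl v (k + q)) |>.card
def chiC (v : Perm (Fin (2 * k))) (x : ℕ) : ℕ :=
  (range k).filter (fun q => x < q ∧ k ≤ vl v q ∧ vl v q ≤ k + x) |>.card
def chiD (v : Perm (Fin (2 * k))) (y : ℕ) : ℕ :=
  (range k).filter (fun q => q < y ∧ y ≤ vl v (k + q) ∧ vl v (k + q) < k) |>.card
/-- number of A-values in `[A(x), y)` -/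
def winA (v : Perm (Fin (2 * k))) (x y : ℕ) : ℕ :=
  (range k).filter (fun q => vl v x ≤ vl v q ∧ vl v q < y) |>.card
/-- number of B-values in `(x, B(y)]` -/
def winB (v : Perm (Fin (2 * k))) (x y : ℕ) : ℕ :=
  (range k).filter (fun q => k + x < vl v (k + q) ∧ vl v (k + q) ≤ vl v (k + y)) |>.card

def GA (C : ℕ) (v : Perm (Fin (2 * k))) (x y : ℕ) : Prop :=
  y ≤ vl v x ∨ winA v x y ≤ C * poolA v x y
def GB (C : ℕ) (v : Perm (Fin (2 * k))) (x y : ℕ) : Prop :=
  vl v (k + y) ≤ k + x ∨ winB v x y ≤ C * poolB v x y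

/-- type 1 base condition at `(x,y)`, level `ρ` -/
def Base1 (ρ : ℕ) (v : Perm (Fin (2 * k))) (x y : ℕ) : Prop :=
  Band v ∧ lev v = ρ ∧ x < k ∧ y < k ∧ vl v x < k ∧ k ≤ vl v (k + y) ∧
    (∃ q < k, vl v q = y) ∧ gA v x = hA v y ∧ (y + 1 = k ∨ ∃ q < k, vl v q = y + 1)
/-- type 2 base condition at `(x,y)`, level `ρ` -/
def Base2 (ρ : ℕ) (v : Perm (Fin (2 * k))) (x y : ℕ) : Prop :=
  Band v ∧ lev v = ρ ∧ x < k ∧ y < k ∧ vl v x < k ∧ k ≤ vl v (k + y) ∧
    hB v x = gB v y ∧ (y + 1 = k ∨ k ≤ vl v (k + (y + 1)))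
/-- good for shortening a C-rook at `x` -/
def SC (C ρ : ℕ) (v : Perm (Fin (2 * k))) (x : ℕ) : Prop :=
  Band v ∧ lev v = ρ ∧ x < k ∧ vl v x < k ∧ 1 ≤ chiC v x ∧
    hA v (vl v x) ≤ gA v x + C * chiC v x ∧ gA v x ≤ hA v (vl v x) + C * chiC v x
/-- good for shortening a D-rook at `y` (position `k+y`) -/
def SD (C ρ : ℕ) (v : Perm (Fin (2 * k))) (y : ℕ) : Prop :=
  Band v ∧ lev v = ρ ∧ y < k ∧ k ≤ vl v (k + y) ∧ 1 ≤ chiD v y ∧
    hB v (vl v (k + y) - k) ≤ gB v y + C * chiD v y ∧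
    gB v y ≤ hB v (vl v (k + y) - k) + C * chiD v y

open Classical in
/-- `F`-mass of a predicate -/
noncomputable def mass (F : Perm (Fin (2 * k)) → ℝ) (P : Perm (Fin (2 * k)) → Prop) : ℝ :=
  ∑ v, if P v then F v else 0

/-! rows -/

/-- R1: few bad points -/
def Row1 : Prop := ∀ (m t : ℕ) (α : ℕ → ℕ), (∀ i, α i ≤ m) →
  ((Icc 1 m).filter (fun i =>
    2 ^ t * ((Icc 1 i).filter (fun j => i < α j)).card < α i - i)).card * t ≤ 3 * m

/-- R2: exchange inside A, `(x,y)` fixed.  `Q` is any predicate invariant under exchanges of A. -/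
def Row2 : Prop := ∀ (k : ℕ) (F : Perm (Fin (2 * k)) → ℝ), IncB F → ∀ (C x y : ℕ), x < k → y < k →
  ∀ Q : Perm (Fin (2 * k)) → Prop, (∀ v, Q v → Band v ∧ vl v x < k) →
  (∀ v q, Q v → q < k → vl v q < k → Q (v * sw k x q)) →
  mass F (fun v => Q v ∧ vl v x < y ∧ winA v x y ≤ C * poolA v x y)
    ≤ C * mass F (fun v => Q v ∧ y ≤ vl v x)

/-- R3: exchange inside B, `(x,y)` fixed. -/
def Row3 : Prop := ∀ (k : ℕ) (F : Perm (Fin (2 * k)) → ℝ), IncB F → ∀ (C x y : ℕ), x < k → y < k →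
  ∀ Q : Perm (Fin (2 * k)) → Prop, (∀ v, Q v → Band v ∧ k ≤ vl v (k + y)) →
  (∀ v q, Q v → q < k → k ≤ vl v (k + q) → Q (v * sw k (k + y) (k + q))) →
  mass F (fun v => Q v ∧ k + x < vl v (k + y) ∧ winB v x y ≤ C * poolB v x y)
    ≤ C * mass F (fun v => Q v ∧ vl v (k + y) ≤ k + x)

/-- R4: the flip and its decoding, types 1 and 2 -/
def Row4 : Prop := ∀ (k : ℕ) (F : Perm (Fin (2 * k)) → ℝ), IncB F → ∀ ρ : ℕ,
  (∑ x ∈ range k, ∑ y ∈ range k,
      mass F (fun v => Base1 ρ v x y ∧ y ≤ vl v x ∧ vl v (k + y) ≤ k + x)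
    ≤ 2 * (ρ + 1) * mass F (fun w => Band w ∧ lev w = ρ + 1)) ∧
  (∑ x ∈ range k, ∑ y ∈ range k,
      mass F (fun v => Base2 ρ v x y ∧ y ≤ vl v x ∧ vl v (k + y) ≤ k + x)
    ≤ (ρ + 1) * mass F (fun w => Band w ∧ lev w = ρ + 1))

/-- R5: shortening of C-rooks -/
def Row5 : Prop := ∀ (k : ℕ) (F : Perm (Fin (2 * k)) → ℝ), IncB F → ∀ C ρ : ℕ,
  ∑ x ∈ range k, mass F (fun v => SC C ρ v x)
    ≤ (2 * C + 1) * ρ * mass F (fun w => Band w ∧ lev w = ρ)

/-- R6: shortening of D-rooks -/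
def Row6 : Prop := ∀ (k : ℕ) (F : Perm (Fin (2 * k)) → ℝ), IncB F → ∀ C ρ : ℕ,
  ∑ y ∈ range k, mass F (fun v => SD C ρ v y)
    ≤ (2 * C + 1) * ρ * mass F (fun w => Band w ∧ lev w = ρ)

open Classical in
/-- R7: trichotomy -/
def Row7 : Prop := ∀ (k : ℕ) (v : Perm (Fin (2 * k))) (ρ : ℕ), Band v → lev v = ρ → 20 * ρ ≤ k →
  k ≤ 2 * (((range k).filter (fun x => ∃ y < k, Base1 ρ v x y ∧
        GA (2 ^ 74) v x y ∧ GB (2 ^ 74) v x y)).card
      + ((range k).filter (fun x => ∃ y < k, Base2 ρ v x y ∧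
        GA (2 ^ 74) v x y ∧ GB (2 ^ 74) v x y)).card
      + ((range k).filter (fun x => SC (2 ^ 76) ρ v x)).card
      + 2 * ((range k).filter (fun y => SD (2 ^ 76) ρ v y)).card)

open Classical in
/-- final statement of unit S (for functions `F` increasing on the band) -/
def Final (c : ℝ) : Prop := ∀ (k : ℕ) (F : Perm (Fin (2 * k)) → ℝ), IncB F →
  c * k * mass F (fun v => Band v) ≤ ∑ v, (if Band v then F v else 0) * (lev v : ℝ)

end Vale.Agent.P235.R2.H18
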